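import Vale.Agent.Lib.P161.Gauss

/-! Moments of the Gaussian field on finitely many coordinates. -/

open MeasureTheory ProbabilityTheory Finset
open scoped ENNReal NNReal Classical

noncomputable section

namespace Vale.Agent.Lib.P161D

open Vale.Agent.Lib.P161

variable {V : Type*}

theorem map_coord_gam (v : V) : (gam V).map (fun g => g v) = gaussianReal 0 1 :=
  Measure.infinitePi_map_eval (fun _ : V => gaussianReal (0 : ℝ) 1) v

theorem memLp_coord (v : V) (p : ℝ≥0∞) (hp : p ≠ ∞) : MemLp (fun g : V → ℝ => g v) p (gam V) := by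
  have h := memLp_id_gaussianReal' (μ := 0) (v := 1) p hp
  rw [← map_coord_gam v] at h
  have hm : AEMeasurable (fun g : V → ℝ => g v) (gam V) := (measurable_pi_apply v).aemeasurable
  exact (memLp_map_measure_iff (f := fun g : V → ℝ => g v) (g := id) aestronglyMeasurable_id hm).1 h

theorem integral_coord (v : V) : ∫ g : V → ℝ, g v ∂gam V = 0 := by
  have h : ∫ x, x ∂((gam V).map (fun g => g v)) = ∫ g : V → ℝ, g v ∂gam V :=
    integral_map (measurable_pi_apply v).aemeasurable aestronglyMeasurable_id
  rw [← h, map_coord_gam v]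
  exact integral_id_gaussianReal

theorem integral_coord_sq (v : V) : ∫ g : V → ℝ, g v ^ 2 ∂gam V = 1 := by
  have h : ∫ x, x ^ 2 ∂((gam V).map (fun g => g v)) = ∫ g : V → ℝ, g v ^ 2 ∂gam V :=
    integral_map (measurable_pi_apply v).aemeasurable (by fun_prop)
  rw [← h, map_coord_gam v]
  have h2 := variance_id_gaussianReal (μ := 0) (v := 1)
  rw [variance_eq_sub (memLp_id_gaussianReal' 2 (by norm_num))] at h2
  simpa [integral_id_gaussianReal] using h2

theorem integral_coord_mul {u v : V} (huv : u ≠ v) :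
    ∫ g : V → ℝ, g u * g v ∂gam V = 0 := by
  have hind : iIndepFun (fun v (g : V → ℝ) => g v) (gam V) :=
    iIndepFun_infinitePi (P := fun _ : V => gaussianReal 0 1) (X := fun _ x => x)
      (fun _ => measurable_id)
  have h := (hind.indepFun huv).integral_fun_mul_eq_mul_integral
    (measurable_pi_apply u).aestronglyMeasurable (measurable_pi_apply v).aestronglyMeasurable
  rw [h, integral_coord, zero_mul]

theorem integrable_coord_mul (u v : V) : Integrable (fun g : V → ℝ => g u * g v) (gam V) :=
  (memLp_coord u 2 (by norm_num)).integrable_mul (memLp_coord v 2 (by norm_num))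

/-- The second moment of a finite linear combination. -/
theorem integral_sum_sq (S : Finset V) (d : V → ℝ) :
    ∫ g : V → ℝ, (∑ v ∈ S, d v * g v) ^ 2 ∂gam V = ∑ v ∈ S, d v ^ 2 := by
  have e : ∀ g : V → ℝ, (∑ v ∈ S, d v * g v) ^ 2 =
      ∑ u ∈ S, ∑ v ∈ S, d u * d v * (g u * g v) := by
    intro g
    rw [sq, Finset.sum_mul_sum]
    refine Finset.sum_congr rfl fun u _ => Finset.sum_congr rfl fun v _ => ?_
    ring
  simp_rw [e]
  rw [integral_finsetSum _ (fun u _ => integrable_finsetSum _ fun v _ =>
    (integrable_coord_mul u v).const_mul _)]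
  refine Finset.sum_congr rfl fun u hu => ?_
  rw [integral_finsetSum _ (fun v _ => (integrable_coord_mul u v).const_mul _)]
  rw [Finset.sum_eq_single_of_mem u hu]
  · rw [integral_const_mul]
    have : ∫ g : V → ℝ, g u * g u ∂gam V = 1 := by
      have := integral_coord_sq u
      simpa [sq] using this
    rw [this]
    ring
  · intro v _ hvu
    rw [integral_const_mul, integral_coord_mul hvu.symm, mul_zero]

theorem integrable_sum_sq (S : Finset V) (d : V → ℝ) :
    Integrable (fun g : V → ℝ => (∑ v ∈ S, d v * g v) ^ 2) (gam V) := by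
  have e : ∀ g : V → ℝ, (∑ v ∈ S, d v * g v) ^ 2 =
      ∑ u ∈ S, ∑ v ∈ S, d u * d v * (g u * g v) := by
    intro g
    rw [sq, Finset.sum_mul_sum]
    refine Finset.sum_congr rfl fun u _ => Finset.sum_congr rfl fun v _ => ?_
    ring
  simp_rw [e]
  exact integrable_finsetSum _ fun u _ => integrable_finsetSum _ fun v _ =>
    (integrable_coord_mul u v).const_mul _

/-- The `ℓ¹` norm of the field on `S`. -/
def ell1 (S : Finset V) (g : V → ℝ) : ℝ := ∑ v ∈ S, |g v|

theorem ell1_nonneg (S : Finset V) (g : V → ℝ) : 0 ≤ ell1 S g :=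
  Finset.sum_nonneg fun _ _ => abs_nonneg _

theorem memLp_ell1 (S : Finset V) (p : ℝ≥0∞) (hp : p ≠ ∞) : MemLp (ell1 S) p (gam V) := by
  have h : MemLp (∑ v ∈ S, fun g : V → ℝ => |g v|) p (gam V) :=
    memLp_finsetSum' _ fun v _ => (memLp_coord v p hp).abs
  have e : (∑ v ∈ S, fun g : V → ℝ => |g v|) = ell1 S := by
    funext g
    simp [ell1]
  rwa [e] at h

theorem integrable_ell1_pow (S : Finset V) (n : ℕ) :
    Integrable (fun g : V → ℝ => ell1 S g ^ n) (gam V) := by
  have h := (memLp_ell1 S (n : ℝ≥0∞) (by simp)).integrable_norm_pow'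
  refine h.congr (Filter.Eventually.of_forall fun g => ?_)
  simp [abs_of_nonneg (ell1_nonneg S g)]

end Vale.Agent.Lib.P161D
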