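import Vale.Agent.Lib.P161.Fiid


/-! `L¹` comparison of the exact chain, the Euler scheme on balls and Euler schemes at different levels,
at general times. -/

open MeasureTheory Finset Filter Topology
open scoped Classical ENNReal

noncomputable section

namespace Vale.Agent.Lib.P161D

open Vale.Agent.Lib.P161

variable {V : Type*} {G : SimpleGraph V} {β : ℝ} [G.LocallyFinite] {d : ℕ} {κ ρ : ℝ}

section constants

theorem convC_nonneg (hκ : 0 < κ) (hκρ : κ < ρ) (hρ : ρ < 1) (hdκρ : ((d : ℝ) - 1) * κ * ρ < 1) :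
    0 ≤ convC d κ ρ := by
  have hρ0 : 0 < ρ := hκ.trans hκρ
  have hκ1 : κ < 1 := hκρ.trans hρ
  have h1 : 0 < 1 - κ / ρ := by
    rw [sub_pos, div_lt_one hρ0]; exact hκρ
  have h2 : 0 < 1 - ((d : ℝ) - 1) * κ * ρ := by linarith
  have h3 : 0 < 1 - κ ^ 2 := by nlinarith
  simp only [convC]
  positivity

theorem fc_mono_T {N T T' C : ℝ} (h0 : 0 ≤ N) (hC : 0 ≤ C) (hT0 : 0 ≤ T) (hT : T ≤ T') :
    fc N T C ≤ fc N T' C := by
  unfold fc
  have hT' : 0 ≤ T' := hT0.trans hT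
  gcongr

theorem cR_mono_T {N T T' C : ℝ} (h0 : 0 ≤ N) (hC : 0 ≤ C) (hT0 : 0 ≤ T) (hT : T ≤ T') :
    cR N T C ≤ cR N T' C := by
  unfold cR
  have := fc_mono_T h0 hC hT0 hT
  gcongr

theorem cM_mono_T {N T T' C : ℝ} (h0 : 0 ≤ N) (hC : 0 ≤ C) (hT : T ≤ T') :
    cM N T C ≤ cM N T' C := by
  unfold cM
  gcongr

theorem cS_mono_T {N T T' C : ℝ} (h0 : 0 ≤ N) (hC : 0 ≤ C) (hT0 : 0 ≤ T) (hT : T ≤ T') :
    cS N T C ≤ cS N T' C := by
  unfold cS
  have h1 := cR_mono_T h0 hC hT0 hT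
  have h2 := cR_nonneg (C := C) h0 hT0
  have h3 := cM_mono_T (T := T) (C := C) h0 hC hT
  have h4 := cM_nonneg (T := T) (C := C) h0
  have hT' : 0 ≤ T' := hT0.trans hT
  gcongr

theorem stat_mono_T {T T' : ℝ} {n : ℕ} (hC : 0 ≤ convC d κ ρ) (hx : 0 ≤ ((d : ℝ) - 1) * ρ ^ 2)
    (hT : T ≤ T') : stat d κ ρ T n ≤ stat d κ ρ T' n := by
  unfold stat
  gcongr

theorem stat_nonneg {T : ℝ} {n : ℕ} (hC : 0 ≤ convC d κ ρ) (hx : 0 ≤ ((d : ℝ) - 1) * ρ ^ 2) :
    0 ≤ stat d κ ρ T n := by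
  unfold stat
  positivity

/-- The error bound of the comparison, uniform for times up to `T` and for balls of radius `n`. -/
def err0 (d : ℕ) (κ ρ : ℝ) (T : ℝ) (n l : ℕ) : ℝ :=
  6 * T ^ 2 * stat d κ ρ T n + 3 * T * cS (((d + 1) ^ n : ℕ) : ℝ) T (convC d κ ρ) * dlt l

theorem errC_le_err0 {T τ : ℝ} {N n l : ℕ} (hC : 0 ≤ convC d κ ρ)
    (hx : 0 ≤ ((d : ℝ) - 1) * ρ ^ 2) (hτ0 : 0 ≤ τ) (hτ : τ ≤ T) (hN : N ≤ (d + 1) ^ n) :
    errC d κ ρ N τ (dlt l) n ≤ err0 d κ ρ T n l := by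
  unfold errC err0
  have hT0 : 0 ≤ T := hτ0.trans hτ
  have hN' : (N : ℝ) ≤ (((d + 1) ^ n : ℕ) : ℝ) := by exact_mod_cast hN
  have h1 : cS (N : ℝ) τ (convC d κ ρ) ≤ cS (((d + 1) ^ n : ℕ) : ℝ) T (convC d κ ρ) :=
    (cS_mono (Nat.cast_nonneg _) hN' hτ0).trans (cS_mono_T (Nat.cast_nonneg _) hC hτ0 hτ)
  have h2 : 0 ≤ cS (N : ℝ) τ (convC d κ ρ) := cS_nonneg (Nat.cast_nonneg _) hτ0
  have h3 : stat d κ ρ τ n ≤ stat d κ ρ T n := stat_mono_T hC hx hτ
  have h4 := stat_nonneg (T := τ) (n := n) hC hx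
  have h5 := dlt_pos l
  gcongr

theorem err0_nonneg {T : ℝ} {n l : ℕ} (hC : 0 ≤ convC d κ ρ)
    (hx : 0 ≤ ((d : ℝ) - 1) * ρ ^ 2) (hT : 0 ≤ T) : 0 ≤ err0 d κ ρ T n l := by
  unfold err0
  have h1 := stat_nonneg (T := T) (n := n) hC hx
  have h2 := cS_nonneg (N := (((d + 1) ^ n : ℕ) : ℝ)) (C := convC d κ ρ) (Nat.cast_nonneg _) hT
  have h3 := dlt_pos l
  positivity

theorem err0_mono_l {T : ℝ} {n l l' : ℕ} (hT : 0 ≤ T) (hl : l ≤ l') :
    err0 d κ ρ T n l' ≤ err0 d κ ρ T n l := by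
  unfold err0
  have h2 := cS_nonneg (N := (((d + 1) ^ n : ℕ) : ℝ)) (C := convC d κ ρ) (Nat.cast_nonneg _) hT
  have h3 := dlt_anti hl
  gcongr

end constants

/-- Elementary inequality passing from squares to absolute values. -/
theorem ofReal_abs_le_sq (x : ℝ) {ε : ℝ} (hε : 0 < ε) :
    ENNReal.ofReal |x| ≤ ENNReal.ofReal ε + ENNReal.ofReal (1 / ε) * ENNReal.ofReal (x ^ 2) := by
  rw [← ENNReal.ofReal_mul (by positivity), ← ENNReal.ofReal_add hε.le (by positivity)]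
  refine ENNReal.ofReal_le_ofReal ?_
  by_cases h : |x| ≤ ε
  · have : 0 ≤ 1 / ε * x ^ 2 := by positivity
    linarith
  · push Not at h
    have h1 : 1 / ε * x ^ 2 = |x| * (|x| / ε) := by
      rw [← sq_abs x]
      field_simp
    have h2 : 1 ≤ |x| / ε := by
      rw [le_div_iff₀ hε]
      linarith
    rw [h1]
    nlinarith [abs_nonneg x]

section chainflow

variable {S' : Finset V} {δ : ℝ}

/-- The exact chain on a star set and the Euler scheme on a ball about `r` are close in `L¹`. -/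
theorem chain_flow_L1 (hT : G.IsTree) (hd : 2 ≤ d) (hreg : G.IsRegularOfDegree d) (hβ : 0 ≤ β)
    (hθκ : Real.tanh β ≤ κ) (hκ : 0 < κ) (hκρ : κ < ρ) (hρ : ρ < 1)
    (hdκρ : ((d : ℝ) - 1) * κ * ρ < 1) (r : V) (n : ℕ) (hSS' : ball G r n ⊆ S')
    (hS' : Star G r S') (hδ0 : 0 < δ) (hδ1 : δ ≤ 1) (K : ℕ) {ε : ℝ} (hε : 0 < ε)
    (herr : errC d κ ρ (ball G r n).card (K * δ) δ n ≤ ε ^ 2) :
    ∫⁻ ξ, chainFrom G β S' δ 0 ξ K
        (fun y => ENNReal.ofReal |y r - flow G β (ball G r n) δ ξ 0 K 0 r|) 0 ∂nu V ≤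
      ENNReal.ofReal (2 * ε) := by
  rcases Nat.eq_zero_or_pos K with rfl | hK
  · simp [chainFrom, flow]
  set Z : (ℕ → V → ℝ) → ℝ := fun ξ => flow G β (ball G r n) δ ξ 0 K 0 r with hZ
  have hZm : Measurable Z := measurable_flow_noise _ _ _ _
  have hm2 : Measurable (Function.uncurry fun (ξ : ℕ → V → ℝ) (y : V → ℝ) =>
      ENNReal.ofReal ((y r - Z ξ) ^ 2)) := by
    refine ENNReal.measurable_ofReal.comp (Measurable.pow_const (Measurable.sub ?_ ?_) 2)
    · exact (measurable_pi_apply r).comp measurable_snd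
    · exact hZm.comp measurable_fst
  have hm3 : Measurable (fun ξ : ℕ → V → ℝ => chainFrom G β S' δ 0 ξ K
      (fun y => ENNReal.ofReal ((y r - Z ξ) ^ 2)) 0) :=
    measurable_chain_at S' δ 0 K _ hm2 0
  have hdep : ∀ ξ ξ' : ℕ → V → ℝ, (∀ i ∈ Finset.range K, ξ i = ξ' i) →
      chainFrom G β S' δ 0 ξ K (fun y => ENNReal.ofReal ((y r - Z ξ) ^ 2)) 0 =
        chainFrom G β S' δ 0 ξ' K (fun y => ENNReal.ofReal ((y r - Z ξ') ^ 2)) 0 := by
    intro ξ ξ' h
    have h' : ∀ j ∈ Finset.Ico 0 (0 + K), ξ j = ξ' j := fun j hj => h j (by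
      rw [Finset.mem_Ico] at hj
      rw [Finset.mem_range]
      omega)
    have h1 : Z ξ = Z ξ' := by
      simp only [hZ]
      rw [flow_congr_noise _ _ K 0 0 h']
    rw [h1]
    exact chainFrom_congr S' δ 0 K h' _ _
  have hmain : ∫⁻ ξ, chainFrom G β S' δ 0 ξ K (fun y => ENNReal.ofReal ((y r - Z ξ) ^ 2)) 0 ∂nu V ≤
      ENNReal.ofReal (ε ^ 2) := by
    rw [lintegral_nu_eq_lmarginal (Finset.range K) _ hm3 hdep 0]
    refine (compare_flow hT hd hreg hβ hθκ hκ hκρ hρ hdκρ r n hSS' hS' hδ0 hδ1 K hK 0).trans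
      (ENNReal.ofReal_le_ofReal ?_)
    exact herr
  calc ∫⁻ ξ, chainFrom G β S' δ 0 ξ K (fun y => ENNReal.ofReal |y r - Z ξ|) 0 ∂nu V
      ≤ ∫⁻ ξ, (ENNReal.ofReal ε + ENNReal.ofReal (1 / ε) *
          chainFrom G β S' δ 0 ξ K (fun y => ENNReal.ofReal ((y r - Z ξ) ^ 2)) 0) ∂nu V := by
        refine lintegral_mono fun ξ => ?_
        refine (chainFrom_mono K (fun y => ofReal_abs_le_sq (y r - Z ξ) hε) 0).trans ?_
        rw [chainFrom_add', chainFrom_const_mul, chainFrom_const]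
    _ = ENNReal.ofReal ε + ENNReal.ofReal (1 / ε) *
          ∫⁻ ξ, chainFrom G β S' δ 0 ξ K (fun y => ENNReal.ofReal ((y r - Z ξ) ^ 2)) 0 ∂nu V := by
        rw [lintegral_add_left measurable_const, lintegral_const_mul _ hm3]
        simp
    _ ≤ ENNReal.ofReal ε + ENNReal.ofReal (1 / ε) * ENNReal.ofReal (ε ^ 2) := by gcongr
    _ = ENNReal.ofReal (2 * ε) := by
        rw [← ENNReal.ofReal_mul (by positivity), ← ENNReal.ofReal_add hε.le (by positivity)]
        congr 1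
        field_simp
        ring

end chainflow

section flows

variable {δ : ℝ}

/-- Two Euler schemes on balls about `r`, at the same level: `L¹` closeness. -/
theorem flow_flow_L1 (hT : G.IsTree) (hd : 2 ≤ d) (hreg : G.IsRegularOfDegree d) (hβ : 0 ≤ β)
    (hθκ : Real.tanh β ≤ κ) (hκ : 0 < κ) (hκρ : κ < ρ) (hρ : ρ < 1)
    (hdκρ : ((d : ℝ) - 1) * κ * ρ < 1) (r : V) (n₁ n₂ : ℕ) (hδ0 : 0 < δ) (hδ1 : δ ≤ 1) (K : ℕ)
    {ε : ℝ} (hε : 0 < ε)
    (herr₁ : errC d κ ρ (ball G r n₁).card (K * δ) δ n₁ ≤ ε ^ 2)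
    (herr₂ : errC d κ ρ (ball G r n₂).card (K * δ) δ n₂ ≤ ε ^ 2) :
    ∫⁻ ξ, ENNReal.ofReal |flow G β (ball G r n₁) δ ξ 0 K 0 r - flow G β (ball G r n₂) δ ξ 0 K 0 r|
      ∂nu V ≤ ENNReal.ofReal (4 * ε) := by
  set S := ball G r (max n₁ n₂) with hS
  have hrr : r ∈ S := by rw [hS, mem_ball hT]; simp
  have hstar : Star G r S := star_ball hT hrr
  have hsub : ∀ m, m ≤ max n₁ n₂ → ball G r m ⊆ S := by
    intro m hm v hv
    rw [hS, mem_ball hT]
    rw [mem_ball hT] at hv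
    omega
  set Z₁ : (ℕ → V → ℝ) → ℝ := fun ξ => flow G β (ball G r n₁) δ ξ 0 K 0 r with hZ₁
  set Z₂ : (ℕ → V → ℝ) → ℝ := fun ξ => flow G β (ball G r n₂) δ ξ 0 K 0 r with hZ₂
  have hZ₁m : Measurable Z₁ := measurable_flow_noise _ _ _ _
  have hZ₂m : Measurable Z₂ := measurable_flow_noise _ _ _ _
  have h1 := chain_flow_L1 hT hd hreg hβ hθκ hκ hκρ hρ hdκρ r n₁ (hsub n₁ (le_max_left _ _)) hstar
    hδ0 hδ1 K hε herr₁
  have h2 := chain_flow_L1 hT hd hreg hβ hθκ hκ hκρ hρ hdκρ r n₂ (hsub n₂ (le_max_right _ _)) hstar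
    hδ0 hδ1 K hε herr₂
  have hm : ∀ Z : (ℕ → V → ℝ) → ℝ, Measurable Z → Measurable (fun ξ : ℕ → V → ℝ =>
      chainFrom G β S δ 0 ξ K (fun y => ENNReal.ofReal |y r - Z ξ|) 0) := by
    intro Z hZ
    refine measurable_chain_at S δ 0 K _ ?_ 0
    refine ENNReal.measurable_ofReal.comp (Measurable.abs (Measurable.sub ?_ ?_))
    · exact (measurable_pi_apply r).comp measurable_snd
    · exact hZ.comp measurable_fst
  calc ∫⁻ ξ, ENNReal.ofReal |Z₁ ξ - Z₂ ξ| ∂nu V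
      ≤ ∫⁻ ξ, (chainFrom G β S δ 0 ξ K (fun y => ENNReal.ofReal |y r - Z₁ ξ|) 0 +
          chainFrom G β S δ 0 ξ K (fun y => ENNReal.ofReal |y r - Z₂ ξ|) 0) ∂nu V := by
        refine lintegral_mono fun ξ => ?_
        rw [← chainFrom_add']
        calc ENNReal.ofReal |Z₁ ξ - Z₂ ξ|
            = chainFrom G β S δ 0 ξ K (fun _ => ENNReal.ofReal |Z₁ ξ - Z₂ ξ|) 0 :=
              (chainFrom_const K _ _).symm
          _ ≤ _ := by
              refine chainFrom_mono K (fun y => ?_) 0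
              refine le_trans (ENNReal.ofReal_le_ofReal ?_) ENNReal.ofReal_add_le
              have : Z₁ ξ - Z₂ ξ = -(y r - Z₁ ξ) + (y r - Z₂ ξ) := by ring
              rw [this]
              refine (abs_add_le _ _).trans ?_
              rw [abs_neg]
    _ = ∫⁻ ξ, chainFrom G β S δ 0 ξ K (fun y => ENNReal.ofReal |y r - Z₁ ξ|) 0 ∂nu V +
          ∫⁻ ξ, chainFrom G β S δ 0 ξ K (fun y => ENNReal.ofReal |y r - Z₂ ξ|) 0 ∂nu V :=
        lintegral_add_left (hm Z₁ hZ₁m) _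
    _ ≤ ENNReal.ofReal (2 * ε) + ENNReal.ofReal (2 * ε) := add_le_add h1 h2
    _ = ENNReal.ofReal (4 * ε) := by
        rw [← ENNReal.ofReal_add (by positivity) (by positivity)]
        congr 1
        ring

end flows

section levels

variable (g : ℕ → ℕ → unitInterval → ℝ) (hm : ∀ l k, Measurable (g l k))
  (hsum : ∀ l k u, g l k u = (g (l + 1) (2 * k) u + g (l + 1) (2 * k + 1) u) / Real.sqrt 2)
  (hlaw : ∀ l, (volume : Measure unitInterval).map (fun u k => g l k u) =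
    Measure.infinitePi (fun _ : ℕ => stdN))

/-- The Euler field: `K` steps at level `l` on the ball of radius `n` about `v`, read at `v`. -/
def Ze (G : SimpleGraph V) [G.LocallyFinite] (β : ℝ) (n l K : ℕ) (v : V) (U : V → unitInterval) : ℝ :=
  flow G β (ball G v n) (dlt l) (xiN g l U) 0 K 0 v

/-- The constant of the comparison between levels, at time `T`. -/
def RT (N T : ℝ) : ℝ := 2 * Real.exp (2 * N * T) * T * N ^ 2

theorem RT_nonneg {N T : ℝ} (hT : 0 ≤ T) : 0 ≤ RT N T := by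
  unfold RT; positivity

theorem RT_mono {N N' T T' : ℝ} (hN0 : 0 ≤ N) (hN : N ≤ N') (hT0 : 0 ≤ T) (hT : T ≤ T') :
    RT N T ≤ RT N' T' := by
  unfold RT
  have hT' : 0 ≤ T' := hT0.trans hT
  have hN' : 0 ≤ N' := hN0.trans hN
  gcongr

omit [G.LocallyFinite] in
include hm hsum hlaw in
theorem refine_level' (S : Finset V) (K l : ℕ) :
    ∫⁻ U, ENNReal.ofReal (∑ u ∈ S, |flow G β S (dlt (l + 1)) (xiN g (l + 1) U) 0 (2 * K) 0 u -
        flow G β S (dlt l) (xiN g l U) 0 K 0 u|) ∂iidUniform V ≤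
      ENNReal.ofReal (RT S.card (K * dlt l) * qq ^ l) := by
  have h := refine_bound (G := G) (β := β) (iidUniform V) S (dlt_pos l) (dlt_le_one l) K
    (xiN g l) (xiN g (l + 1))
    (fun k v => by
      have := measurable_xiN (V := V) g hm (l + 1)
      exact (measurable_pi_apply v).comp ((measurable_pi_apply k).comp this))
    (fun U k v => hsum l k (U v))
    (fun k v => mom_xiN g hm hlaw (l + 1) k v)
  rw [sqrt_dlt, ← dlt_succ] at h
  exact h

theorem dlt_add (l m : ℕ) : dlt (l + m) = dlt l / 2 ^ m := by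
  induction m with
  | zero => simp
  | succ m ih =>
    rw [← add_assoc, dlt_succ, ih, pow_succ]
    field_simp

theorem K_dlt_add (K l m : ℕ) : ((2 ^ m * K : ℕ) : ℝ) * dlt (l + m) = K * dlt l := by
  rw [dlt_add]
  push_cast
  field_simp

omit [G.LocallyFinite] in
include hm hsum hlaw in
theorem refine_iter' (S : Finset V) (K l m : ℕ) :
    ∫⁻ U, ENNReal.ofReal (∑ u ∈ S, |flow G β S (dlt (l + m)) (xiN g (l + m) U) 0 (2 ^ m * K) 0 u -
        flow G β S (dlt l) (xiN g l U) 0 K 0 u|) ∂iidUniform V ≤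
      ENNReal.ofReal (4 * RT S.card (K * dlt l) * (qq ^ l - qq ^ (l + m))) := by
  have hR : 0 ≤ RT S.card (K * dlt l) := RT_nonneg (by have := dlt_pos l; positivity)
  induction m with
  | zero => simp
  | succ m ih =>
    have hmeasA : Measurable (fun U : V → unitInterval => ENNReal.ofReal
        (∑ u ∈ S, |flow G β S (dlt (l + m + 1)) (xiN g (l + m + 1) U) 0 (2 * (2 ^ m * K)) 0 u -
          flow G β S (dlt (l + m)) (xiN g (l + m) U) 0 (2 ^ m * K) 0 u|)) := by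
      refine ENNReal.measurable_ofReal.comp (Finset.measurable_sum _ fun u _ => ?_)
      exact (((measurable_flow_noise S _ _ u).comp (measurable_xiN g hm _)).sub
        ((measurable_flow_noise S _ _ u).comp (measurable_xiN g hm _))).abs
    have hq1 : qq ≤ 1 := qq_le.trans (by norm_num)
    have hpow : 0 ≤ qq ^ (l + m) := pow_nonneg qq_pos.le _
    have hle : qq ^ (l + m) ≤ qq ^ l :=
      pow_le_pow_of_le_one qq_pos.le hq1 (by omega)
    have e2 : 2 ^ (m + 1) * K = 2 * (2 ^ m * K) := by ring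
    have e3 : ((2 ^ m * K : ℕ) : ℝ) * dlt (l + m) = K * dlt l := K_dlt_add K l m
    have hlev := refine_level' (G := G) (β := β) g hm hsum hlaw S (2 ^ m * K) (l + m)
    rw [e3] at hlev
    calc ∫⁻ U, ENNReal.ofReal (∑ u ∈ S, |flow G β S (dlt (l + (m + 1))) (xiN g (l + (m + 1)) U) 0
            (2 ^ (m + 1) * K) 0 u - flow G β S (dlt l) (xiN g l U) 0 K 0 u|) ∂iidUniform V
        ≤ ∫⁻ U, (ENNReal.ofReal (∑ u ∈ S, |flow G β S (dlt (l + m + 1)) (xiN g (l + m + 1) U) 0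
              (2 * (2 ^ m * K)) 0 u - flow G β S (dlt (l + m)) (xiN g (l + m) U) 0 (2 ^ m * K) 0 u|) +
            ENNReal.ofReal (∑ u ∈ S, |flow G β S (dlt (l + m)) (xiN g (l + m) U) 0 (2 ^ m * K) 0 u -
              flow G β S (dlt l) (xiN g l U) 0 K 0 u|)) ∂iidUniform V := by
          refine lintegral_mono fun U => ?_
          refine le_trans (ENNReal.ofReal_le_ofReal ?_) ENNReal.ofReal_add_le
          rw [← Finset.sum_add_distrib, e2]
          refine Finset.sum_le_sum fun u _ => ?_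
          rw [← add_assoc]
          exact abs_sub_le _ _ _
      _ = _ := lintegral_add_left hmeasA _
      _ ≤ ENNReal.ofReal (RT S.card (K * dlt l) * qq ^ (l + m)) +
            ENNReal.ofReal (4 * RT S.card (K * dlt l) * (qq ^ l - qq ^ (l + m))) :=
          add_le_add hlev ih
      _ = ENNReal.ofReal (RT S.card (K * dlt l) * qq ^ (l + m) +
            4 * RT S.card (K * dlt l) * (qq ^ l - qq ^ (l + m))) := by
          rw [ENNReal.ofReal_add (mul_nonneg hR hpow)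
            (mul_nonneg (by positivity) (sub_nonneg.2 hle))]
      _ ≤ _ := by
          refine ENNReal.ofReal_le_ofReal ?_
          have e : qq ^ (l + (m + 1)) = qq ^ (l + m) * qq := by rw [← add_assoc, pow_succ]
          rw [e]
          have h3 : 0 ≤ RT S.card (K * dlt l) * qq ^ (l + m) * (3 - 4 * qq) :=
            mul_nonneg (mul_nonneg hR hpow) (by linarith [qq_le])
          nlinarith

omit [G.LocallyFinite] in
include hm hsum hlaw in
/-- Comparison of two levels at one point. -/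
theorem refine_point' (S : Finset V) {r : V} (hr : r ∈ S) (K l m : ℕ) :
    ∫⁻ U, ENNReal.ofReal |flow G β S (dlt (l + m)) (xiN g (l + m) U) 0 (2 ^ m * K) 0 r -
        flow G β S (dlt l) (xiN g l U) 0 K 0 r| ∂iidUniform V ≤
      ENNReal.ofReal (4 * RT S.card (K * dlt l) * qq ^ l) := by
  have hR : 0 ≤ RT S.card (K * dlt l) := RT_nonneg (by have := dlt_pos l; positivity)
  refine le_trans (lintegral_mono fun U => ENNReal.ofReal_le_ofReal ?_)
    ((refine_iter' (G := G) (β := β) g hm hsum hlaw S K l m).trans (ENNReal.ofReal_le_ofReal ?_))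
  · exact Finset.single_le_sum (f := fun u => |flow G β S (dlt (l + m)) (xiN g (l + m) U) 0
      (2 ^ m * K) 0 u - flow G β S (dlt l) (xiN g l U) 0 K 0 u|) (fun _ _ => abs_nonneg _) hr
  · have hpow : 0 ≤ qq ^ (l + m) := pow_nonneg qq_pos.le _
    have : 0 ≤ 4 * RT S.card (K * dlt l) * qq ^ (l + m) := by positivity
    nlinarith

theorem Ze_map (hT : G.IsTree) (φ : G ≃g G) (U : V → unitInterval) (n l K : ℕ) (v : V) :
    Ze g G β n l K (φ v) (U ∘ φ.symm) = Ze g G β n l K v U := by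
  unfold Ze
  rw [ball_map φ hT]
  exact flow_map φ _ _ (xiN g l U) 0 _ 0 v

include hm in
theorem measurable_Ze (n l K : ℕ) (v : V) : Measurable (Ze g G β n l K v) :=
  (measurable_flow_noise _ _ _ _).comp (measurable_xiN g hm l)

end levels

end Vale.Agent.Lib.P161D
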