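import Vale.Agent.Lib.P161D.Lim1

/-! The limit field: for `(d-1) θ² < 1`, the Euler schemes on balls converge at every dyadic time, as
the radius and the level go to infinity. The limit is measurable and equivariant. -/

open MeasureTheory Finset Filter Topology
open scoped Classical ENNReal

noncomputable section

namespace Vale.Agent.Lib.P161D

open Vale.Agent.Lib.P161

variable {V : Type*} {G : SimpleGraph V} {β : ℝ} [G.LocallyFinite] {d : ℕ} {κ ρ : ℝ}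

/-- A sequence with summable `L¹` increments converges almost everywhere. -/
theorem ae_tendsto_of_summable_L1 {Ω : Type*} [MeasurableSpace Ω] (μ : Measure Ω)
    (Z : ℕ → Ω → ℝ) (hZ : ∀ j, Measurable (Z j)) (j₀ : ℕ) (c : ℕ → ℝ) (hc : Summable c)
    (h0 : ∀ j, 0 ≤ c j)
    (h : ∀ j, j₀ ≤ j → ∫⁻ ω, ENNReal.ofReal |Z (j + 1) ω - Z j ω| ∂μ ≤ ENNReal.ofReal (c j)) :
    ∀ᵐ ω ∂μ, ∃ L : ℝ, Tendsto (fun j => Z j ω) atTop (𝓝 L) := by
  set f : ℕ → Ω → ℝ≥0∞ := fun j ω => ENNReal.ofReal |Z (j + j₀ + 1) ω - Z (j + j₀) ω| with hf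
  have hfm : ∀ j, Measurable (f j) := fun j =>
    (((hZ _).sub (hZ _)).abs).ennreal_ofReal
  have hsum : ∑' j, ENNReal.ofReal (c (j + j₀)) ≠ ∞ := by
    rw [← ENNReal.ofReal_tsum_of_nonneg (fun j => h0 _) ((summable_nat_add_iff j₀).2 hc)]
    exact ENNReal.ofReal_ne_top
  have hint : ∫⁻ ω, ∑' j, f j ω ∂μ ≠ ∞ := by
    rw [lintegral_tsum (fun j => (hfm j).aemeasurable)]
    refine ne_top_of_le_ne_top hsum (ENNReal.tsum_le_tsum fun j => ?_)
    exact h (j + j₀) (by omega)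
  have hae := ae_lt_top (Measurable.tsum hfm) hint
  filter_upwards [hae] with ω hω
  have hC : CauchySeq (fun j => Z (j + j₀) ω) := by
    refine cauchySeq_of_edist_le_of_tsum_ne_top (fun j => f j ω) (fun j => ?_) hω.ne
    rw [edist_dist, Real.dist_eq, abs_sub_comm]
    have : j + 1 + j₀ = j + j₀ + 1 := by ring
    simp only [hf, this]
    exact le_rfl
  obtain ⟨L, hL⟩ := cauchySeq_tendsto_of_complete hC
  exact ⟨L, (tendsto_add_atTop_iff_nat j₀).1 hL⟩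

/-- Number of steps at level `l` up to time `τ`. -/
def stp (τ : ℝ) (l : ℕ) : ℕ := ⌊τ * 2 ^ l⌋₊

theorem stp_eq (K l m : ℕ) : stp (K * dlt l) (l + m) = 2 ^ m * K := by
  unfold stp
  have e : (K : ℝ) * dlt l * 2 ^ (l + m) = ((2 ^ m * K : ℕ) : ℝ) := by
    unfold dlt
    push_cast
    rw [pow_add]
    have h2 : ((1 : ℝ) / 2) ^ l * 2 ^ l = 1 := by
      rw [← mul_pow]
      norm_num
    calc (K : ℝ) * (1 / 2) ^ l * (2 ^ l * 2 ^ m) = K * 2 ^ m * ((1 / 2) ^ l * 2 ^ l) := by ring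
      _ = _ := by rw [h2]; ring
  rw [e, Nat.floor_natCast]

/-- The sequences of radii and of levels. -/
structure Sq (d : ℕ) (κ ρ : ℝ) (n l : ℕ → ℕ) : Prop where
  mono_n : Monotone n
  mono_l : Monotone l
  err_le : ∀ j, err0 d κ ρ (2 ^ j) (n j) (l j) ≤ ((1 / 2) ^ j) ^ 2
  R_le : ∀ j, 4 * RT (((d + 1) ^ n j : ℕ) : ℝ) (2 ^ j) * qq ^ l j ≤ (1 / 2) ^ j
  l_ge : ∀ j, j ≤ l j

theorem exists_Sq (d : ℕ) (κ ρ : ℝ) (hd : 2 ≤ d) (hρ : ((d : ℝ) - 1) * ρ ^ 2 < 1) :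
    ∃ n l : ℕ → ℕ, Sq d κ ρ n l := by
  have hd1 : (0 : ℝ) ≤ (d : ℝ) - 1 := by
    have : (2 : ℝ) ≤ d := by exact_mod_cast hd
    linarith
  have hx0 : 0 ≤ ((d : ℝ) - 1) * ρ ^ 2 := by positivity
  obtain ⟨n, hn, hstat⟩ := exists_mono_seq
    (fun j m => 6 * (2 ^ j : ℝ) ^ 2 * stat d κ ρ (2 ^ j) m ≤ ((1 / 2) ^ j) ^ 2 / 2)
    (fun j => by
      obtain ⟨L, hL⟩ := exists_mul_pow_le
        (6 * (2 ^ j : ℝ) ^ 2 * (2 * Real.exp (convC d κ ρ * 2 ^ j) ^ 2 * convC d κ ρ ^ 3)) hx0 hρ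
        (by positivity : (0 : ℝ) < ((1 / 2) ^ j) ^ 2 / 2)
      refine ⟨L, fun m hm => ?_⟩
      have := hL m hm
      unfold stat
      refine le_trans (le_of_eq ?_) this
      ring)
  have hq1 : qq < 1 := qq_le.trans_lt (by norm_num)
  obtain ⟨l, hl, hboth⟩ := exists_mono_seq
    (fun j m => 3 * (2 ^ j : ℝ) * cS (((d + 1) ^ n j : ℕ) : ℝ) (2 ^ j) (convC d κ ρ) * dlt m ≤
        ((1 / 2) ^ j) ^ 2 / 2 ∧
      4 * RT (((d + 1) ^ n j : ℕ) : ℝ) (2 ^ j) * qq ^ m ≤ (1 / 2) ^ j)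
    (fun j => by
      set A := 3 * (2 ^ j : ℝ) * cS (((d + 1) ^ n j : ℕ) : ℝ) (2 ^ j) (convC d κ ρ) with hA
      set B := 4 * RT (((d + 1) ^ n j : ℕ) : ℝ) (2 ^ j) with hB
      have hA0 : 0 ≤ A := mul_nonneg (by positivity) (cS_nonneg (Nat.cast_nonneg _) (by positivity))
      have hB0 : 0 ≤ B := mul_nonneg (by norm_num) (RT_nonneg (by positivity))
      have hm0 : (0 : ℝ) < min (((1 / 2) ^ j) ^ 2 / 2) ((1 / 2) ^ j) := by
        refine lt_min (by positivity) (by positivity)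
      obtain ⟨L, hL⟩ := exists_mul_pow_le (A + B) qq_pos.le hq1 hm0
      refine ⟨L, fun m hm => ?_⟩
      have h1 := hL m hm
      have hp : 0 ≤ qq ^ m := pow_nonneg qq_pos.le _
      constructor
      · calc A * dlt m ≤ A * qq ^ m := mul_le_mul_of_nonneg_left (dlt_le_qq_pow m) hA0
          _ ≤ (A + B) * qq ^ m := mul_le_mul_of_nonneg_right (by linarith) hp
          _ ≤ _ := h1.trans (min_le_left _ _)
      · calc B * qq ^ m ≤ (A + B) * qq ^ m := mul_le_mul_of_nonneg_right (by linarith) hp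
          _ ≤ _ := h1.trans (min_le_right _ _))
  refine ⟨n, fun j => l j + j, hn, fun a b hab => add_le_add (hl hab) hab, fun j => ?_, fun j => ?_,
    fun j => Nat.le_add_left _ _⟩
  · refine (err0_mono_l (by positivity) (Nat.le_add_right _ _)).trans ?_
    unfold err0
    have h1 := hstat j
    have h2 := (hboth j).1
    calc _ ≤ ((1 / 2 : ℝ) ^ j) ^ 2 / 2 + ((1 / 2 : ℝ) ^ j) ^ 2 / 2 := add_le_add h1 h2
      _ = _ := by ring
  · refine le_trans ?_ (hboth j).2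
    have h0 : 0 ≤ RT (((d + 1) ^ n j : ℕ) : ℝ) (2 ^ j) := RT_nonneg (by positivity)
    have h1 : qq ^ (l j + j) ≤ qq ^ l j :=
      pow_le_pow_of_le_one qq_pos.le (qq_le.trans (by norm_num)) (Nat.le_add_right _ _)
    gcongr

section limit

variable (g : ℕ → ℕ → unitInterval → ℝ) (hm : ∀ l k, Measurable (g l k))
  (hsum : ∀ l k u, g l k u = (g (l + 1) (2 * k) u + g (l + 1) (2 * k + 1) u) / Real.sqrt 2)
  (hlaw : ∀ l, (volume : Measure unitInterval).map (fun u k => g l k u) =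
    Measure.infinitePi (fun _ : ℕ => stdN))

variable {n l : ℕ → ℕ}

/-- The limit field. -/
def Yf (G : SimpleGraph V) [G.LocallyFinite] (β : ℝ) (n l : ℕ → ℕ) (τ : ℝ) (v : V)
    (U : V → unitInterval) : ℝ :=
  limsup (fun j => Ze g G β (n j) (l j) (stp τ (l j)) v U) atTop

include hm in
theorem measurable_Yf (τ : ℝ) (v : V) : Measurable (Yf g G β n l τ v) :=
  Measurable.limsup fun j => measurable_Ze g hm _ _ _ _

theorem Yf_map (hT : G.IsTree) (φ : G ≃g G) (U : V → unitInterval) (τ : ℝ) (v : V) :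
    Yf g G β n l τ (φ v) (U ∘ φ.symm) = Yf g G β n l τ v U := by
  unfold Yf
  simp only [Ze_map g hT φ U]

include hm hlaw in
/-- Two Euler fields at the same level, in `L¹` over the uniform variables. -/
theorem Ze_same_level (hT : G.IsTree) (hd : 2 ≤ d) (hreg : G.IsRegularOfDegree d) (hβ : 0 ≤ β)
    (hθκ : Real.tanh β ≤ κ) (hκ : 0 < κ) (hκρ : κ < ρ) (hρ : ρ < 1)
    (hdκρ : ((d : ℝ) - 1) * κ * ρ < 1) (v : V) (n₁ n₂ L K : ℕ) {ε : ℝ} (hε : 0 < ε)
    (herr₁ : errC d κ ρ (ball G v n₁).card (K * dlt L) (dlt L) n₁ ≤ ε ^ 2)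
    (herr₂ : errC d κ ρ (ball G v n₂).card (K * dlt L) (dlt L) n₂ ≤ ε ^ 2) :
    ∫⁻ U, ENNReal.ofReal |Ze g G β n₁ L K v U - Ze g G β n₂ L K v U| ∂iidUniform V ≤
      ENNReal.ofReal (4 * ε) := by
  have hQ : Measurable (fun ξ : ℕ → V → ℝ => ENNReal.ofReal
      |flow G β (ball G v n₁) (dlt L) ξ 0 K 0 v - flow G β (ball G v n₂) (dlt L) ξ 0 K 0 v|) :=
    ((measurable_flow_noise _ _ _ _).sub (measurable_flow_noise _ _ _ _)).abs.ennreal_ofReal
  have h := lintegral_xiN (V := V) g hm hlaw L _ hQ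
  unfold Ze
  rw [h]
  exact flow_flow_L1 hT hd hreg hβ hθκ hκ hκρ hρ hdκρ v n₁ n₂ (dlt_pos L) (dlt_le_one L) K hε herr₁ herr₂

include hm hsum hlaw in
/-- Comparison of levels for the Euler field. -/
theorem Ze_levels (hT : G.IsTree) (hreg : G.IsRegularOfDegree d) (v : V) (N L m K : ℕ) {T : ℝ}
    (hT' : (K : ℝ) * dlt L ≤ T) :
    ∫⁻ U, ENNReal.ofReal |Ze g G β N (L + m) (2 ^ m * K) v U - Ze g G β N L K v U| ∂iidUniform V ≤
      ENNReal.ofReal (4 * RT (((d + 1) ^ N : ℕ) : ℝ) T * qq ^ L) := by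
  have hv : v ∈ ball G v N := by rw [mem_ball hT]; simp
  refine (refine_point' (G := G) (β := β) g hm hsum hlaw (ball G v N) hv K L m).trans
    (ENNReal.ofReal_le_ofReal ?_)
  have hq := pow_nonneg qq_pos.le L
  have h0 : (0 : ℝ) ≤ (K : ℝ) * dlt L := by have := dlt_pos L; positivity
  have hc : ((ball G v N).card : ℝ) ≤ (((d + 1) ^ N : ℕ) : ℝ) := by
    exact_mod_cast card_ball_le hreg v N
  have := RT_mono (Nat.cast_nonneg _) hc h0 hT'
  gcongr

variable (hs : Sq d κ ρ n l)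

include hm hsum hlaw hs in
/-- One stage changes the Euler field by little, at a dyadic time. -/
theorem stage_step (hT : G.IsTree) (hd : 2 ≤ d) (hreg : G.IsRegularOfDegree d) (hβ : 0 ≤ β)
    (hθκ : Real.tanh β ≤ κ) (hκ : 0 < κ) (hκρ : κ < ρ) (hρ : ρ < 1)
    (hdκρ : ((d : ℝ) - 1) * κ * ρ < 1) (hx : ((d : ℝ) - 1) * ρ ^ 2 < 1) (v : V) (K L : ℕ) (j : ℕ)
    (hL : L ≤ l j) (hτ : (K : ℝ) * dlt L ≤ 2 ^ j) :
    ∫⁻ U, ENNReal.ofReal |Ze g G β (n (j + 1)) (l (j + 1)) (stp (K * dlt L) (l (j + 1))) v U -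
        Ze g G β (n j) (l j) (stp (K * dlt L) (l j)) v U| ∂iidUniform V ≤
      ENNReal.ofReal (5 * (1 / 2) ^ j) := by
  have hd1 : (0 : ℝ) ≤ (d : ℝ) - 1 := by
    have : (2 : ℝ) ≤ d := by exact_mod_cast hd
    linarith
  have hx0 : 0 ≤ ((d : ℝ) - 1) * ρ ^ 2 := by positivity
  have hC := convC_nonneg (d := d) hκ hκρ hρ hdκρ
  set τ : ℝ := (K : ℝ) * dlt L with hτd
  have hτ0 : 0 ≤ τ := by have := dlt_pos L; positivity
  obtain ⟨m₁, hm₁⟩ := Nat.exists_eq_add_of_le hL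
  have hll := hs.mono_l (Nat.le_succ j)
  obtain ⟨m₂, hm₂⟩ := Nat.exists_eq_add_of_le hll
  set Kj := stp τ (l j) with hKj
  have hKj' : Kj = 2 ^ m₁ * K := by
    rw [hKj, hτd, hm₁]
    exact stp_eq K L m₁
  have hKj2 : stp τ (l (j + 1)) = 2 ^ m₂ * Kj := by
    rw [hKj', hτd, hm₂, hm₁, add_assoc, stp_eq, pow_add]
    ring
  have hτj : (Kj : ℝ) * dlt (l j) = τ := by
    rw [hKj', hm₁]
    exact K_dlt_add K L m₁
  have hτj2 : ((2 ^ m₂ * Kj : ℕ) : ℝ) * dlt (l (j + 1)) = τ := by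
    rw [hm₂]
    rw [K_dlt_add Kj (l j) m₂]
    exact hτj
  rw [hKj2]
  set ε : ℝ := (1 / 2) ^ j with hε
  have hε0 : 0 < ε := by positivity
  have h1 := Ze_levels (β := β) g hm hsum hlaw hT hreg v (n j) (l j) m₂ Kj (T := 2 ^ j)
    (by rw [hτj]; exact hτ)
  have hR := hs.R_le j
  have hle : errC d κ ρ (ball G v (n j)).card (((2 ^ m₂ * Kj : ℕ) : ℝ) * dlt (l (j + 1)))
      (dlt (l (j + 1))) (n j) ≤ ε ^ 2 := by
    rw [hτj2]
    refine (errC_le_err0 hC hx0 hτ0 hτ (card_ball_le hreg v (n j))).trans ?_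
    exact (err0_mono_l (by positivity) hll).trans (hs.err_le j)
  have hle2 : errC d κ ρ (ball G v (n (j + 1))).card (((2 ^ m₂ * Kj : ℕ) : ℝ) * dlt (l (j + 1)))
      (dlt (l (j + 1))) (n (j + 1)) ≤ ε ^ 2 := by
    rw [hτj2]
    have hτ' : τ ≤ 2 ^ (j + 1) := hτ.trans (pow_le_pow_right₀ (by norm_num) (Nat.le_succ j))
    refine (errC_le_err0 hC hx0 hτ0 hτ' (card_ball_le hreg v (n (j + 1)))).trans ?_
    refine (hs.err_le (j + 1)).trans ?_
    have : ((1 / 2 : ℝ) ^ (j + 1)) ≤ ε := by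
      rw [hε]
      exact pow_le_pow_of_le_one (by norm_num) (by norm_num) (Nat.le_succ j)
    exact pow_le_pow_left₀ (by positivity) this 2
  have h2 := Ze_same_level (β := β) g hm hlaw hT hd hreg hβ hθκ hκ hκρ hρ hdκρ v (n (j + 1)) (n j)
    (l (j + 1)) (2 ^ m₂ * Kj) hε0 hle2 hle
  have e : l (j + 1) = l j + m₂ := hm₂
  have hmeas : Measurable (fun U : V → unitInterval => ENNReal.ofReal
      |Ze g G β (n (j + 1)) (l (j + 1)) (2 ^ m₂ * Kj) v U -
        Ze g G β (n j) (l (j + 1)) (2 ^ m₂ * Kj) v U|) :=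
    ((measurable_Ze g hm _ _ _ _).sub (measurable_Ze g hm _ _ _ _)).abs.ennreal_ofReal
  calc _ ≤ ∫⁻ U, (ENNReal.ofReal |Ze g G β (n (j + 1)) (l (j + 1)) (2 ^ m₂ * Kj) v U -
          Ze g G β (n j) (l (j + 1)) (2 ^ m₂ * Kj) v U| +
        ENNReal.ofReal |Ze g G β (n j) (l (j + 1)) (2 ^ m₂ * Kj) v U -
          Ze g G β (n j) (l j) Kj v U|) ∂iidUniform V := by
        refine lintegral_mono fun U => ?_
        refine le_trans (ENNReal.ofReal_le_ofReal ?_) ENNReal.ofReal_add_le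
        exact abs_sub_le _ _ _
    _ = _ := lintegral_add_left hmeas _
    _ ≤ ENNReal.ofReal (4 * ε) + ENNReal.ofReal ε := by
        refine add_le_add h2 ?_
        rw [e]
        exact h1.trans (ENNReal.ofReal_le_ofReal hR)
    _ = _ := by
        rw [← ENNReal.ofReal_add (by positivity) hε0.le]
        congr 1
        ring

include hm hsum hlaw hs in
/-- Almost everywhere convergence of the stages to the limit field. -/
theorem ae_tendsto_Ze (hT : G.IsTree) (hd : 2 ≤ d) (hreg : G.IsRegularOfDegree d) (hβ : 0 ≤ β)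
    (hθκ : Real.tanh β ≤ κ) (hκ : 0 < κ) (hκρ : κ < ρ) (hρ : ρ < 1)
    (hdκρ : ((d : ℝ) - 1) * κ * ρ < 1) (hx : ((d : ℝ) - 1) * ρ ^ 2 < 1)
    (hl : Tendsto l atTop atTop) (v : V) (K L : ℕ) :
    ∀ᵐ U ∂iidUniform V, Tendsto (fun j => Ze g G β (n j) (l j) (stp (K * dlt L) (l j)) v U) atTop
      (𝓝 (Yf g G β n l (K * dlt L) v U)) := by
  obtain ⟨j₁, hj₁⟩ := (tendsto_atTop.1 hl L).exists_forall_of_atTop
  have hτ : ∃ j₂ : ℕ, (K : ℝ) * dlt L ≤ 2 ^ j₂ := pow_unbounded_of_one_lt _ (by norm_num) |>.imp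
    fun _ h => h.le
  obtain ⟨j₂, hj₂⟩ := hτ
  have hsumm : Summable (fun j : ℕ => 5 * (1 / 2 : ℝ) ^ j) :=
    (summable_geometric_of_lt_one (by norm_num) (by norm_num)).mul_left 5
  have h := ae_tendsto_of_summable_L1 (iidUniform V)
    (fun j => Ze g G β (n j) (l j) (stp (K * dlt L) (l j)) v)
    (fun j => measurable_Ze g hm _ _ _ _) (max j₁ j₂) _ hsumm (fun j => by positivity)
    (fun j hj => stage_step g hm hsum hlaw hs hT hd hreg hβ hθκ hκ hκρ hρ hdκρ hx v K L j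
      (hj₁ j ((le_max_left _ _).trans hj))
      (hj₂.trans (pow_le_pow_right₀ (by norm_num) ((le_max_right _ _).trans hj))))
  filter_upwards [h] with U hU
  obtain ⟨a, ha⟩ := hU
  have e : Yf g G β n l (K * dlt L) v U = a := ha.limsup_eq
  rw [e]
  exact ha

include hm hsum hlaw hs in
/-- The Euler fields are close to the limit field, at all dyadic times up to `T`, uniformly. -/
theorem Yf_close (hT : G.IsTree) (hd : 2 ≤ d) (hreg : G.IsRegularOfDegree d) (hβ : 0 ≤ β)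
    (hθκ : Real.tanh β ≤ κ) (hκ : 0 < κ) (hκρ : κ < ρ) (hρ : ρ < 1)
    (hdκρ : ((d : ℝ) - 1) * κ * ρ < 1) (hx : ((d : ℝ) - 1) * ρ ^ 2 < 1)
    {T ε : ℝ} (hT0 : 0 ≤ T) (hε : 0 < ε) :
    ∃ n₀ : ℕ, ∀ N, n₀ ≤ N → ∃ l₁ : ℕ, ∀ L, l₁ ≤ L → ∀ K : ℕ, (K : ℝ) * dlt L ≤ T → ∀ v : V,
      ∫⁻ U, ENNReal.ofReal |Ze g G β N L K v U - Yf g G β n l (K * dlt L) v U| ∂iidUniform V ≤
        ENNReal.ofReal ε := by
  have hd1 : (0 : ℝ) ≤ (d : ℝ) - 1 := by
    have : (2 : ℝ) ≤ d := by exact_mod_cast hd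
    linarith
  have hx0 : 0 ≤ ((d : ℝ) - 1) * ρ ^ 2 := by positivity
  have hC := convC_nonneg (d := d) hκ hκρ hρ hdκρ
  set η : ℝ := ε / 16 with hη
  have hη0 : 0 < η := by positivity
  obtain ⟨n₀, hn₀⟩ := exists_mul_pow_le
    (6 * T ^ 2 * (2 * Real.exp (convC d κ ρ * T) ^ 2 * convC d κ ρ ^ 3)) hx0 hx
    (by positivity : (0 : ℝ) < η ^ 2 / 2)
  refine ⟨n₀, fun N hN => ?_⟩
  have hq1 : qq < 1 := qq_le.trans_lt (by norm_num)
  set A := 3 * T * cS (((d + 1) ^ N : ℕ) : ℝ) T (convC d κ ρ) with hA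
  set B := 4 * RT (((d + 1) ^ N : ℕ) : ℝ) T with hB
  have hA0 : 0 ≤ A := mul_nonneg (by positivity) (cS_nonneg (Nat.cast_nonneg _) hT0)
  have hB0 : 0 ≤ B := mul_nonneg (by norm_num) (RT_nonneg hT0)
  have hm0 : (0 : ℝ) < min (η ^ 2 / 2) (ε / 4) := lt_min (by positivity) (by positivity)
  obtain ⟨l₁, hl₁⟩ := exists_mul_pow_le (A + B) qq_pos.le hq1 hm0
  refine ⟨l₁, fun L hL K hτ v => ?_⟩
  set τ : ℝ := (K : ℝ) * dlt L with hτd
  have hτ0 : 0 ≤ τ := by have := dlt_pos L; positivity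
  have hp : ∀ m, 0 ≤ qq ^ m := fun m => pow_nonneg qq_pos.le _
  have hAb : ∀ m, l₁ ≤ m → A * dlt m ≤ η ^ 2 / 2 := fun m hm =>
    calc A * dlt m ≤ A * qq ^ m := mul_le_mul_of_nonneg_left (dlt_le_qq_pow m) hA0
      _ ≤ (A + B) * qq ^ m := mul_le_mul_of_nonneg_right (by linarith) (hp m)
      _ ≤ _ := (hl₁ m hm).trans (min_le_left _ _)
  have hBb : B * qq ^ L ≤ ε / 4 :=
    calc B * qq ^ L ≤ (A + B) * qq ^ L := mul_le_mul_of_nonneg_right (by linarith) (hp L)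
      _ ≤ _ := (hl₁ L hL).trans (min_le_right _ _)
  have hstat : 6 * T ^ 2 * stat d κ ρ T N ≤ η ^ 2 / 2 := by
    have := hn₀ N hN
    unfold stat
    refine le_trans (le_of_eq ?_) this
    ring
  have hae := ae_tendsto_Ze g hm hsum hlaw hs hT hd hreg hβ hθκ hκ hκρ hρ hdκρ hx
    (tendsto_atTop_mono hs.l_ge tendsto_id) v K L
  have hlim : ∀ᵐ U ∂iidUniform V, ENNReal.ofReal |Ze g G β N L K v U - Yf g G β n l τ v U| =
      liminf (fun j => ENNReal.ofReal |Ze g G β N L K v U -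
        Ze g G β (n j) (l j) (stp τ (l j)) v U|) atTop := by
    filter_upwards [hae] with U hU
    have h1 : Tendsto (fun j => ENNReal.ofReal |Ze g G β N L K v U -
        Ze g G β (n j) (l j) (stp τ (l j)) v U|) atTop
        (𝓝 (ENNReal.ofReal |Ze g G β N L K v U - Yf g G β n l τ v U|)) :=
      ENNReal.continuous_ofReal.continuousAt.tendsto.comp
        (((tendsto_const_nhds.sub hU)).abs)
    exact h1.liminf_eq.symm
  rw [lintegral_congr_ae hlim]
  refine (lintegral_liminf_le (fun j =>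
    (((measurable_Ze g hm _ _ _ _).sub (measurable_Ze g hm _ _ _ _)).abs).ennreal_ofReal)).trans ?_
  refine liminf_le_of_frequently_le' (Eventually.frequently ?_)
  -- the bound for large `j`
  have hev1 : ∀ᶠ j : ℕ in atTop, L ≤ l j ∧ l₁ ≤ l j :=
    (eventually_ge_atTop (max L l₁)).mono fun j hj =>
      ⟨(le_max_left _ _).trans (hj.trans (hs.l_ge j)), (le_max_right _ _).trans (hj.trans (hs.l_ge j))⟩
  have hev2 : ∀ᶠ j : ℕ in atTop, T ≤ 2 ^ j :=
    (tendsto_pow_atTop_atTop_of_one_lt (by norm_num : (1 : ℝ) < 2)).eventually_ge_atTop T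
  have hev3 : ∀ᶠ j : ℕ in atTop, ((1 : ℝ) / 2) ^ j ≤ η :=
    ((tendsto_pow_atTop_nhds_zero_of_lt_one (by norm_num) (by norm_num)).eventually
      (gt_mem_nhds hη0)).mono fun _ h => h.le
  filter_upwards [hev1, hev2, hev3] with j hj1 hj2 hj3
  obtain ⟨m, hm'⟩ := Nat.exists_eq_add_of_le hj1.1
  have hK : stp τ (l j) = 2 ^ m * K := by
    rw [hτd, hm']
    exact stp_eq K L m
  have hτj : ((2 ^ m * K : ℕ) : ℝ) * dlt (l j) = τ := by
    rw [hm']
    exact K_dlt_add K L m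
  rw [hK]
  have hcard : ∀ m : ℕ, (ball G v m).card ≤ (d + 1) ^ m := fun m => card_ball_le hreg v m
  have he1 : errC d κ ρ (ball G v N).card (((2 ^ m * K : ℕ) : ℝ) * dlt (l j)) (dlt (l j)) N ≤ η ^ 2 := by
    rw [hτj]
    refine (errC_le_err0 hC hx0 hτ0 hτ (hcard N)).trans ?_
    unfold err0
    have h2 := hAb (l j) hj1.2
    rw [← hA]
    calc _ ≤ η ^ 2 / 2 + η ^ 2 / 2 := add_le_add hstat h2
      _ = _ := by ring
  have he2 : errC d κ ρ (ball G v (n j)).card (((2 ^ m * K : ℕ) : ℝ) * dlt (l j)) (dlt (l j)) (n j) ≤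
      η ^ 2 := by
    rw [hτj]
    refine (errC_le_err0 hC hx0 hτ0 (hτ.trans hj2) (hcard (n j))).trans ?_
    refine (hs.err_le j).trans ?_
    exact pow_le_pow_left₀ (by positivity) hj3 2
  have h2 := Ze_same_level (β := β) g hm hlaw hT hd hreg hβ hθκ hκ hκρ hρ hdκρ v N (n j) (l j)
    (2 ^ m * K) hη0 he1 he2
  have h1 := Ze_levels (β := β) g hm hsum hlaw hT hreg v N L m K hτ
  have hmeas : Measurable (fun U : V → unitInterval => ENNReal.ofReal
      |Ze g G β N L K v U - Ze g G β N (l j) (2 ^ m * K) v U|) :=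
    ((measurable_Ze g hm _ _ _ _).sub (measurable_Ze g hm _ _ _ _)).abs.ennreal_ofReal
  calc _ ≤ ∫⁻ U, (ENNReal.ofReal |Ze g G β N L K v U - Ze g G β N (l j) (2 ^ m * K) v U| +
        ENNReal.ofReal |Ze g G β N (l j) (2 ^ m * K) v U -
          Ze g G β (n j) (l j) (2 ^ m * K) v U|) ∂iidUniform V := by
        refine lintegral_mono fun U => ?_
        refine le_trans (ENNReal.ofReal_le_ofReal ?_) ENNReal.ofReal_add_le
        exact abs_sub_le _ _ _
    _ = _ := lintegral_add_left hmeas _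
    _ ≤ ENNReal.ofReal (ε / 4) + ENNReal.ofReal (4 * η) := by
        refine add_le_add ?_ h2
        have e : ∀ U : V → unitInterval, |Ze g G β N L K v U - Ze g G β N (l j) (2 ^ m * K) v U| =
            |Ze g G β N (L + m) (2 ^ m * K) v U - Ze g G β N L K v U| := by
          intro U
          rw [abs_sub_comm, hm']
        simp_rw [e]
        exact h1.trans (ENNReal.ofReal_le_ofReal hBb)
    _ ≤ _ := by
        rw [← ENNReal.ofReal_add (by positivity) (by positivity)]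
        refine ENNReal.ofReal_le_ofReal ?_
        rw [hη]
        linarith

end limit

end Vale.Agent.Lib.P161D
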