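import Vale.Agent.Lib.P161D.Lim2

/-! Marginals of the planted law on star sets, the tower property, and the orthogonality of the
increments of conditional expectations in the set and in time. -/

open MeasureTheory Finset Filter Topology
open scoped Classical ENNReal

noncomputable section

namespace Vale.Agent.Lib.P161D

open Vale.Agent.Lib.P161

variable {V : Type*} {G : SimpleGraph V} {β : ℝ}

/-- Sum over the configurations of a disjoint union, with values in any commutative monoid. -/
theorem sum_powerset_union' {M : Type*} [AddCommMonoid M] {S₁ S₂ : Finset V} (hd : Disjoint S₁ S₂)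
    (f : Finset V → M) :
    ∑ A ∈ (S₁ ∪ S₂).powerset, f A =
      ∑ A₁ ∈ S₁.powerset, ∑ A₂ ∈ S₂.powerset, f (A₁ ∪ A₂) := by
  rw [← Finset.sum_product']
  refine Finset.sum_bij' (fun A _ => (A ∩ S₁, A ∩ S₂)) (fun p _ => p.1 ∪ p.2) ?_ ?_ ?_ ?_ ?_
  · intro A hA
    simp only [Finset.mem_product, Finset.mem_powerset]
    exact ⟨Finset.inter_subset_right, Finset.inter_subset_right⟩
  · rintro ⟨A₁, A₂⟩ hp
    simp only [Finset.mem_product, Finset.mem_powerset] at hp
    simp only [Finset.mem_powerset]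
    exact Finset.union_subset_union hp.1 hp.2
  · intro A hA
    simp only [Finset.mem_powerset] at hA
    simp only
    rw [← Finset.inter_union_distrib_left]
    exact Finset.inter_eq_left.mpr hA
  · rintro ⟨A₁, A₂⟩ hp
    simp only [Finset.mem_product, Finset.mem_powerset] at hp
    have h1 : (A₁ ∪ A₂) ∩ S₁ = A₁ := by
      ext a
      simp only [Finset.mem_inter, Finset.mem_union]
      constructor
      · rintro ⟨h | h, h'⟩
        · exact h
        · exact absurd h' (Finset.disjoint_right.mp hd (hp.2 h))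
      · intro h; exact ⟨Or.inl h, hp.1 h⟩
    have h2 : (A₁ ∪ A₂) ∩ S₂ = A₂ := by
      ext a
      simp only [Finset.mem_inter, Finset.mem_union]
      constructor
      · rintro ⟨h | h, h'⟩
        · exact absurd h' (Finset.disjoint_left.mp hd (hp.1 h))
        · exact h
      · intro h; exact ⟨Or.inr h, hp.2 h⟩
    simp [h1, h2]
  · intro A hA
    simp only [Finset.mem_powerset] at hA
    rw [← Finset.inter_union_distrib_left, Finset.inter_eq_left.mpr hA]

section trace

variable {r : V} {D S' : Finset V}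

/-- The zero tilt Gibbs measure on a star set has the Gibbs marginal on a star subset. -/
theorem mu_zero_marginal (hT : G.IsTree) (hr : r ∈ D) (hD : Star G r D) (hDS' : D ⊆ S')
    (hS' : Star G r S') (A : Finset V) (hA : A ⊆ D) :
    ∑ B ∈ (S' \ D).powerset, mu G β S' 0 (A ∪ B) = mu G β D 0 A := by
  unfold mu
  simp_rw [wt_zero]
  rw [← Finset.sum_div, peel' hT hr hD hDS' hS' A hA, Zf_zero_peel hT hr hD hDS' hS']
  have hc : (2 * Real.cosh β) ^ (S' \ D).card ≠ 0 := by
    have := Real.cosh_pos β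
    positivity
  rw [mul_div_mul_left _ _ hc]

/-- Summing a function of the trace on a star subset against the zero tilt Gibbs measure. -/
theorem sum_mu_trace (hT : G.IsTree) (hr : r ∈ D) (hD : Star G r D) (hDS' : D ⊆ S')
    (hS' : Star G r S') (H : Finset V → ℝ≥0∞) :
    ∑ C ∈ S'.powerset, ENNReal.ofReal (mu G β S' 0 C) * H (C ∩ D) =
      ∑ A ∈ D.powerset, ENNReal.ofReal (mu G β D 0 A) * H A := by
  have hunion : D ∪ (S' \ D) = S' := Finset.union_sdiff_of_subset hDS'
  have hd : Disjoint D (S' \ D) := Finset.disjoint_sdiff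
  conv_lhs => rw [← hunion]
  rw [sum_powerset_union' hd]
  refine Finset.sum_congr rfl fun A hA => ?_
  have hA' := Finset.mem_powerset.mp hA
  have hinter : ∀ B ∈ (S' \ D).powerset, (A ∪ B) ∩ D = A := by
    intro B hB
    have hB' := Finset.mem_powerset.mp hB
    ext a
    simp only [Finset.mem_inter, Finset.mem_union]
    constructor
    · rintro ⟨h | h, h'⟩
      · exact h
      · exact absurd h' (Finset.disjoint_right.mp hd (hB' h))
    · intro h
      exact ⟨Or.inl h, hA' h⟩
  have e : ∀ B ∈ (S' \ D).powerset, ENNReal.ofReal (mu G β (D ∪ (S' \ D)) 0 (A ∪ B)) * H ((A ∪ B) ∩ D) =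
      ENNReal.ofReal (mu G β S' 0 (A ∪ B)) * H A := by
    intro B hB
    rw [hinter B hB, hunion]
  rw [Finset.sum_congr rfl e, ← Finset.sum_mul, ← ENNReal.ofReal_sum_of_nonneg
    (fun B _ => (mu_pos _ _ _ _ _).le), mu_zero_marginal hT hr hD hDS' hS' A hA']

/-- A function reading only the coordinates in `D`. -/
def DepOn (D : Finset V) (F : (V → ℝ) → ℝ≥0∞) : Prop :=
  ∀ y y' : V → ℝ, (∀ v ∈ D, y v = y' v) → F y = F y'

theorem stepVec_trace (hDS' : D ⊆ S') (C : Finset V) {v : V} (hv : v ∈ D) :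
    stepVec S' C v = stepVec D (C ∩ D) v := by
  have h1 : v ∈ S' := hDS' hv
  simp [stepVec, hv, h1, sp, Finset.mem_inter]

/-- The planted law on a star set has the planted marginal on a star subset. -/
theorem planted_marginal (hT : G.IsTree) (hr : r ∈ D) (hD : Star G r D) (hDS' : D ⊆ S')
    (hS' : Star G r S') (t : ℝ) {F : (V → ℝ) → ℝ≥0∞} (hF : DepOn D F) :
    planted G β S' t 0 F = planted G β D t 0 F := by
  unfold planted
  rw [← sum_mu_trace (β := β) hT hr hD hDS' hS' (fun A => ∫⁻ g, F (0 + t • stepVec D A + Real.sqrt t • g) ∂gam V)]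
  refine Finset.sum_congr rfl fun C _ => ?_
  congr 1
  refine lintegral_congr fun g => hF _ _ fun v hv => ?_
  simp only [Pi.add_apply, Pi.smul_apply, smul_eq_mul]
  rw [stepVec_trace hDS' C hv]

/-- The tower property of the Gibbs conditional expectations under the planted law. -/
theorem planted_tower (hT : G.IsTree) (hr : r ∈ D) (hD : Star G r D) (hDS' : D ⊆ S')
    (hS' : Star G r S') {t : ℝ} (ht : 0 ≤ t) (f : Finset V → ℝ≥0∞) (hf : ∀ C, f C = f (C ∩ D))
    {h : (V → ℝ) → ℝ≥0∞} (hh : Measurable h) (hdep : DepOn D h) :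
    planted G β S' t 0 (fun y => (∑ B ∈ S'.powerset, ENNReal.ofReal (mu G β S' y B) * f B) * h y) =
      planted G β D t 0 (fun y => (∑ B ∈ D.powerset, ENNReal.ofReal (mu G β D y B) * f B) * h y) := by
  have e1 : ∀ (S : Finset V) (y : V → ℝ),
      (∑ B ∈ S.powerset, ENNReal.ofReal (mu G β S y B) * f B) * h y =
      ∑ B ∈ S.powerset, ENNReal.ofReal (mu G β S y B) * (f B * h y) := by
    intro S y
    rw [Finset.sum_mul]
    exact Finset.sum_congr rfl fun B _ => by rw [mul_assoc]
  simp_rw [e1]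
  rw [planted_bayes S' ht 0 (fun B y => f B * h y) (fun B => hh.const_mul _),
    planted_bayes D ht 0 (fun B y => f B * h y) (fun B => hh.const_mul _)]
  rw [← sum_mu_trace (β := β) hT hr hD hDS' hS'
    (fun A => ∫⁻ g, f A * h (0 + t • stepVec D A + Real.sqrt t • g) ∂gam V)]
  refine Finset.sum_congr rfl fun C _ => ?_
  congr 1
  refine lintegral_congr fun g => ?_
  rw [← hf C]
  congr 1
  refine hdep _ _ fun v hv => ?_
  simp only [Pi.add_apply, Pi.smul_apply, smul_eq_mul]
  rw [stepVec_trace hDS' C hv]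

end trace

section doob

variable {r : V} {D S' : Finset V}

/-- A bounded spin function, shifted to be nonnegative, as an element of the extended reals. -/
def fNN (f : Finset V → ℝ) (A : Finset V) : ℝ≥0∞ := ENNReal.ofReal (1 + f A)

/-- The shifted conditional expectation. -/
def Xt (G : SimpleGraph V) (β : ℝ) (S : Finset V) (f : Finset V → ℝ) (y : V → ℝ) : ℝ :=
  1 + Ee G β S y f

theorem Xt_nonneg (S : Finset V) {f : Finset V → ℝ} (hf : ∀ A, |f A| ≤ 1) (y : V → ℝ) :
    0 ≤ Xt G β S f y := by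
  have := abs_le.mp (abs_Ee_le G β S y f hf)
  unfold Xt
  linarith [this.1]

theorem Xt_le_two (S : Finset V) {f : Finset V → ℝ} (hf : ∀ A, |f A| ≤ 1) (y : V → ℝ) :
    Xt G β S f y ≤ 2 := by
  have := abs_le.mp (abs_Ee_le G β S y f hf)
  unfold Xt
  linarith [this.2]

theorem sum_ofReal_mu_fNN (S : Finset V) {f : Finset V → ℝ} (hf : ∀ A, |f A| ≤ 1) (y : V → ℝ) :
    ∑ B ∈ S.powerset, ENNReal.ofReal (mu G β S y B) * fNN f B = ENNReal.ofReal (Xt G β S f y) := by
  have hnn : ∀ B, 0 ≤ 1 + f B := fun B => by linarith [(abs_le.mp (hf B)).1]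
  have e : ∀ B ∈ S.powerset, ENNReal.ofReal (mu G β S y B) * fNN f B =
      ENNReal.ofReal (mu G β S y B * (1 + f B)) := fun B _ =>
    (ENNReal.ofReal_mul (mu_pos _ _ _ _ _).le).symm
  rw [Finset.sum_congr rfl e, ← ENNReal.ofReal_sum_of_nonneg
    (fun B _ => mul_nonneg (mu_pos _ _ _ _ _).le (hnn B))]
  congr 1
  unfold Xt Ee
  have : ∑ B ∈ S.powerset, mu G β S y B * (1 + f B) =
      ∑ B ∈ S.powerset, mu G β S y B + ∑ B ∈ S.powerset, mu G β S y B * f B := by
    rw [← Finset.sum_add_distrib]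
    exact Finset.sum_congr rfl fun B _ => by ring
  rw [this, sum_mu]

theorem measurable_Xt (S : Finset V) (f : Finset V → ℝ) : Measurable (Xt G β S f) :=
  (measurable_Ee S f).const_add 1

theorem Xt_dep (S : Finset V) (f : Finset V → ℝ) {y y' : V → ℝ} (h : ∀ v ∈ S, y v = y' v) :
    Xt G β S f y = Xt G β S f y' := by
  unfold Xt
  rw [Ee_congr S h f]

/-- The second moment of the shifted conditional expectation under the planted law. -/
def qf (G : SimpleGraph V) (β : ℝ) (S : Finset V) (f : Finset V → ℝ) (t : ℝ) : ℝ≥0∞ :=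
  planted G β S t 0 (fun y => ENNReal.ofReal (Xt G β S f y ^ 2))

theorem planted_add (S : Finset V) (t : ℝ) (y₀ : V → ℝ) {F₁ F₂ : (V → ℝ) → ℝ≥0∞}
    (hF₁ : Measurable F₁) :
    planted G β S t y₀ (fun y => F₁ y + F₂ y) =
      planted G β S t y₀ F₁ + planted G β S t y₀ F₂ := by
  unfold planted
  rw [← Finset.sum_add_distrib]
  refine Finset.sum_congr rfl fun A _ => ?_
  rw [← mul_add, lintegral_add_left]
  exact hF₁.comp ((measurable_stepmap S A t).comp (measurable_const.prodMk measurable_id))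

theorem planted_const_mul (S : Finset V) (t : ℝ) (y₀ : V → ℝ) (c : ℝ≥0∞) {F : (V → ℝ) → ℝ≥0∞}
    (hF : Measurable F) :
    planted G β S t y₀ (fun y => c * F y) = c * planted G β S t y₀ F := by
  unfold planted
  rw [Finset.mul_sum]
  refine Finset.sum_congr rfl fun A _ => ?_
  rw [lintegral_const_mul, mul_left_comm]
  exact hF.comp ((measurable_stepmap S A t).comp (measurable_const.prodMk measurable_id))

theorem planted_mono (S : Finset V) (t : ℝ) (y₀ : V → ℝ) {F₁ F₂ : (V → ℝ) → ℝ≥0∞}
    (h : ∀ y, F₁ y ≤ F₂ y) : planted G β S t y₀ F₁ ≤ planted G β S t y₀ F₂ := by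
  unfold planted
  exact Finset.sum_le_sum fun A _ => mul_le_mul_right (lintegral_mono fun g => h _) _

theorem planted_const (S : Finset V) (t : ℝ) (y₀ : V → ℝ) (c : ℝ≥0∞) :
    planted G β S t y₀ (fun _ => c) = c := by
  unfold planted
  simp only [lintegral_const, measure_univ, mul_one]
  rw [← Finset.sum_mul, ← ENNReal.ofReal_sum_of_nonneg (fun A _ => (mu_pos _ _ _ _ _).le), sum_mu]
  simp

theorem qf_le (S : Finset V) {f : Finset V → ℝ} (hf : ∀ A, |f A| ≤ 1) (t : ℝ) :
    qf G β S f t ≤ ENNReal.ofReal 4 := by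
  unfold qf
  have h : ∀ y, ENNReal.ofReal (Xt G β S f y ^ 2) ≤ ENNReal.ofReal 4 := fun y => by
    refine ENNReal.ofReal_le_ofReal ?_
    have h1 := Xt_nonneg (G := G) (β := β) S hf y
    have h2 := Xt_le_two (G := G) (β := β) S hf y
    nlinarith
  exact (planted_mono S t 0 h).trans (le_of_eq (planted_const S t 0 _))

/-- Orthogonality of the conditional expectations on two nested star sets. -/
theorem doob_sets (hT : G.IsTree) (hr : r ∈ D) (hD : Star G r D) (hDS' : D ⊆ S')
    (hS' : Star G r S') {t : ℝ} (ht : 0 ≤ t) {f : Finset V → ℝ} (hf : ∀ A, |f A| ≤ 1)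
    (hloc : ∀ C, f C = f (C ∩ D)) :
    planted G β S' t 0 (fun y => ENNReal.ofReal ((Ee G β S' y f - Ee G β D y f) ^ 2)) +
      qf G β D f t = qf G β S' f t := by
  set a : (V → ℝ) → ℝ := Xt G β S' f with ha
  set b : (V → ℝ) → ℝ := Xt G β D f with hb
  have ha0 : ∀ y, 0 ≤ a y := Xt_nonneg S' hf
  have hb0 : ∀ y, 0 ≤ b y := Xt_nonneg D hf
  have ham : Measurable a := measurable_Xt S' f
  have hbm : Measurable b := measurable_Xt D f
  have hbdep : DepOn D (fun y => ENNReal.ofReal (b y)) := fun y y' h => by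
    simp only [hb]
    rw [Xt_dep D f h]
  have hb2dep : DepOn D (fun y => ENNReal.ofReal (b y ^ 2)) := fun y y' h => by
    simp only [hb]
    rw [Xt_dep D f h]
  -- the tower identity
  have htower := planted_tower (β := β) hT hr hD hDS' hS' ht (fNN f) (fun C => by
    simp only [fNN]
    rw [← hloc C]) (hbm.ennreal_ofReal) hbdep
  simp_rw [sum_ofReal_mu_fNN _ hf] at htower
  have e1 : ∀ y, ENNReal.ofReal (Xt G β S' f y) * ENNReal.ofReal (b y) =
      ENNReal.ofReal (a y * b y) := fun y => (ENNReal.ofReal_mul (ha0 y)).symm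
  have e2 : ∀ y, ENNReal.ofReal (Xt G β D f y) * ENNReal.ofReal (b y) =
      ENNReal.ofReal (b y ^ 2) := fun y => by
    rw [← ENNReal.ofReal_mul (hb0 y), sq]
  simp_rw [e1, e2] at htower
  have hm : planted G β S' t 0 (fun y => ENNReal.ofReal (b y ^ 2)) =
      planted G β D t 0 (fun y => ENNReal.ofReal (b y ^ 2)) :=
    planted_marginal hT hr hD hDS' hS' t hb2dep
  set Q := planted G β D t 0 (fun y => ENNReal.ofReal (b y ^ 2)) with hQ
  have hQle : Q ≤ ENNReal.ofReal 4 := qf_le D hf t
  have hQtop : Q ≠ ∞ := ne_top_of_le_ne_top ENNReal.ofReal_ne_top hQle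
  -- pointwise identity
  have hpt : ∀ y, ENNReal.ofReal ((Ee G β S' y f - Ee G β D y f) ^ 2) +
      (ENNReal.ofReal (a y * b y) + ENNReal.ofReal (a y * b y)) =
      ENNReal.ofReal (a y ^ 2) + ENNReal.ofReal (b y ^ 2) := by
    intro y
    have hab := mul_nonneg (ha0 y) (hb0 y)
    rw [← ENNReal.ofReal_add hab hab, ← ENNReal.ofReal_add (sq_nonneg _) (by positivity),
      ← ENNReal.ofReal_add (sq_nonneg _) (sq_nonneg _)]
    congr 1
    simp only [ha, hb, Xt]
    ring
  have hmab : Measurable (fun y => ENNReal.ofReal (a y * b y)) := (ham.mul hbm).ennreal_ofReal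
  have hmd : Measurable (fun y => ENNReal.ofReal ((Ee G β S' y f - Ee G β D y f) ^ 2)) :=
    (((measurable_Ee S' f).sub (measurable_Ee D f)).pow_const 2).ennreal_ofReal
  have hint : planted G β S' t 0 (fun y => ENNReal.ofReal ((Ee G β S' y f - Ee G β D y f) ^ 2)) +
      (Q + Q) = qf G β S' f t + Q := by
    have h1 : planted G β S' t 0 (fun y => ENNReal.ofReal ((Ee G β S' y f - Ee G β D y f) ^ 2) +
        (ENNReal.ofReal (a y * b y) + ENNReal.ofReal (a y * b y))) =
        planted G β S' t 0 (fun y => ENNReal.ofReal (a y ^ 2) + ENNReal.ofReal (b y ^ 2)) := by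
      rw [funext hpt]
    rw [planted_add S' t 0 hmd, planted_add S' t 0 hmab, htower,
      planted_add S' t 0 (ham.pow_const 2).ennreal_ofReal, hm] at h1
    exact h1
  rw [← add_assoc] at hint
  exact (ENNReal.add_left_inj hQtop).mp hint

/-- The second moment increases with the set. -/
theorem qf_mono_set (hT : G.IsTree) (hr : r ∈ D) (hD : Star G r D) (hDS' : D ⊆ S')
    (hS' : Star G r S') {t : ℝ} (ht : 0 ≤ t) {f : Finset V → ℝ} (hf : ∀ A, |f A| ≤ 1)
    (hloc : ∀ C, f C = f (C ∩ D)) : qf G β D f t ≤ qf G β S' f t := by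
  rw [← doob_sets hT hr hD hDS' hS' ht hf hloc]
  exact le_add_self

/-- The conditional expectation is a martingale along the exact chain. -/
theorem planted_Xt (S : Finset V) {δ : ℝ} (hδ : 0 ≤ δ) (y : V → ℝ) {f : Finset V → ℝ}
    (hf : ∀ A, |f A| ≤ 1) :
    planted G β S δ y (fun y' => ENNReal.ofReal (Xt G β S f y')) =
      ENNReal.ofReal (Xt G β S f y) := by
  have key := planted_bayes (G := G) (β := β) S hδ y (fun B _ => fNN f B) (fun B => measurable_const)
  simp only [sum_ofReal_mu_fNN _ hf, lintegral_const, measure_univ, mul_one] at key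
  exact key

/-- The second moment increases with the time. -/
theorem qf_mono_time (S : Finset V) {t δ : ℝ} (ht : 0 ≤ t) (hδ : 0 ≤ δ) {f : Finset V → ℝ}
    (hf : ∀ A, |f A| ≤ 1) : qf G β S f t ≤ qf G β S f (t + δ) := by
  unfold qf
  have hX2 : Measurable (fun y => ENNReal.ofReal (Xt G β S f y ^ 2)) :=
    ((measurable_Xt S f).pow_const 2).ennreal_ofReal
  rw [← planted_step S ht hδ 0 hX2]
  refine planted_mono S t 0 fun y => ?_
  have e : ∫⁻ ξ, Tstep G β S δ ξ (fun y => ENNReal.ofReal (Xt G β S f y ^ 2)) y ∂gam V =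
      planted G β S δ y (fun y => ENNReal.ofReal (Xt G β S f y ^ 2)) := by
    have hjoint : ∀ A : Finset V, Measurable (fun ξ : V → ℝ =>
        ENNReal.ofReal (Xt G β S f (y + δ • stepVec S A + Real.sqrt δ • ξ) ^ 2)) := fun A =>
      hX2.comp ((measurable_stepmap S A δ).comp (measurable_const.prodMk measurable_id))
    unfold Tstep planted
    rw [lintegral_finsetSum _ (fun A _ => (hjoint A).const_mul _)]
    refine Finset.sum_congr rfl fun A _ => ?_
    rw [lintegral_const_mul _ (hjoint A)]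
  rw [e]
  -- Jensen by completing the square
  set c : ℝ := Xt G β S f y with hc
  have hc0 : 0 ≤ c := Xt_nonneg S hf y
  have hpt : ∀ y', ENNReal.ofReal (2 * c) * ENNReal.ofReal (Xt G β S f y') ≤
      ENNReal.ofReal (Xt G β S f y' ^ 2) + ENNReal.ofReal (c ^ 2) := by
    intro y'
    rw [← ENNReal.ofReal_mul (by positivity), ← ENNReal.ofReal_add (sq_nonneg _) (sq_nonneg _)]
    refine ENNReal.ofReal_le_ofReal ?_
    nlinarith [sq_nonneg (Xt G β S f y' - c)]
  have hi := planted_mono (G := G) (β := β) S δ y hpt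
  rw [planted_const_mul S δ y _ (measurable_Xt S f).ennreal_ofReal, planted_Xt S hδ y hf,
    planted_add S δ y hX2, planted_const, ← ENNReal.ofReal_mul (by positivity)] at hi
  have e2 : 2 * c * c = c ^ 2 + c ^ 2 := by ring
  rw [e2, ENNReal.ofReal_add (sq_nonneg _) (sq_nonneg _)] at hi
  exact (ENNReal.add_le_add_iff_right ENNReal.ofReal_ne_top).mp hi

end doob

end Vale.Agent.Lib.P161D
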